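import Crest.Agent.R166.B0.Weak

/-!
# Row 166, block B0: exact symmetries of the empirical star law
-/

set_option autoImplicit false

open MeasureTheory ProbabilityTheory Filter Topology
open scoped ENNReal NNReal BigOperators BoundedContinuousFunction Matrix

noncomputable section

namespace Crest.Agent.R166

section cont
variable {q r : ℕ}

theorem b0_cont_cons : Continuous fun p : II × (Fin q → Env q) => cons p.1 p.2 := by
  refine continuous_pi fun l => ?_
  cases l with
  | nil => exact continuous_fst
  | cons j l => simp only [cons]; fun_prop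

theorem b0_cont_edgeOf (i : Fin (q + 1)) : Continuous (edgeOf (r := r) i) := by
  unfold edgeOf nearV
  refine Continuous.prodMk (Continuous.prodMk ?_ (by fun_prop)) ?_
  · exact b0_cont_cons.comp (f := fun x : SState q r => (x.1.1, fun j => x.1.2 (i + j.succ)))
      (by fun_prop)
  · refine continuous_pi fun a => continuous_pi fun o => ?_
    fin_cases o <;> simp <;> fun_prop

theorem b0_cont_rotS (k : Fin (q + 1)) : Continuous (rotS (r := r) k) := by
  unfold rotS; fun_prop

theorem b0_cont_swapE : Continuous (swapE (q := q) (r := r)) := by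
  unfold swapE
  refine Continuous.prodMk (by fun_prop) ?_
  refine continuous_pi fun a => continuous_pi fun o => ?_
  fin_cases o <;> simp <;> fun_prop

theorem b0_cont_clipS (K : ℝ) : Continuous (clipS (q := q) (r := r) K) := by
  unfold clipS; fun_prop

instance b0_envLaw_prob (π : Measure II) [IsProbabilityMeasure π] :
    IsProbabilityMeasure (envLaw q π) := by unfold envLaw; infer_instance

instance b0_starLaw_prob (π : Measure II) [IsProbabilityMeasure π] :
    IsProbabilityMeasure (starLaw q π) := by unfold starLaw; infer_instance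

end cont

section comb
variable {V : Type} [Fintype V] [DecidableEq V] {q r : ℕ}

/-- rotation of half-edges as a permutation -/
def b0_rotE (V : Type) {q : ℕ} (k : Fin (q + 1)) : HE V q ≃ HE V q :=
  Equiv.prodCongr (Equiv.refl V) (Equiv.addRight k)

omit [Fintype V] [DecidableEq V] in
theorem b0_rotE_apply (k : Fin (q + 1)) (h : HE V q) : b0_rotE V k h = rot h k := rfl

omit [DecidableEq V] in
theorem b0_avg_sp (σ : Pairing V q) (F : V → ℝ) (o : SI q) :
    (avg fun h : HE V q => F (sp σ h o)) = avg F := by
  cases o with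
  | none => exact b0_avg_fst F
  | some k =>
    have := b0_avg_equiv (fun h : HE V q => F h.1) ((b0_rotE V k).trans σ.1)
    rw [b0_avg_fst F] at this
    exact this

omit [DecidableEq V] in
theorem b0_empS_rot (c : Cfg V q) (u : Fin r → V → ℝ) (k : Fin (q + 1)) :
    (empS c u).map (rotS k) = empS c u := by
  unfold empS
  rw [b0_emp_map _ (b0_cont_rotS k).measurable]
  rw [← b0_emp_equiv (fun h : HE V q => ((sview c h, fun a o => u a (sp c.1 h o)) : SState q r))
    (b0_rotE V k)]
  congr 1
  ext1 h
  simp only [rotS, b0_rotE_apply, sview, rot, add_assoc]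
  congr 1
  ext a o
  cases o <;> simp [sp, rot, add_assoc]

omit [DecidableEq V] in
theorem b0_empS_edge (c : Cfg V q) (u : Fin r → V → ℝ) :
    (empS c u).map (edgeOf 0) = empE c u := by
  unfold empS empE
  rw [b0_emp_map _ (b0_cont_edgeOf 0).measurable]
  congr 1
  ext1 h
  have h0 : rot h 0 = h := by simp [rot]
  simp only [edgeOf, eview, sview, nearV, h0, zero_add]
  congr 1
  · congr 1
    ext1 l
    cases l <;> rfl
  · ext a o
    fin_cases o <;> simp [sp, ep, h0]

omit [DecidableEq V] in
theorem b0_empE_swap (c : Cfg V q) (u : Fin r → V → ℝ) : (empE c u).map swapE = empE c u := by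
  unfold empE
  rw [b0_emp_map _ b0_cont_swapE.measurable]
  rw [← b0_emp_equiv (fun h : HE V q => ((eview c h, fun a o => u a (ep c.1 h o)) : EState q r))
    c.1.1]
  congr 1
  ext1 h
  have h0 : c.1.1 (c.1.1 h) = h := (c.1.2 h).1
  simp only [swapE, eview, h0]
  congr 1
  ext a o
  fin_cases o <;> simp [ep, h0]

omit [DecidableEq V] in
theorem b0_empS_clip (c : Cfg V q) (u : Fin r → V → ℝ) (K : ℝ) :
    (empS c u).map (clipS K) = empS c fun a v => max (-K) (min K (u a v)) := by
  unfold empS
  rw [b0_emp_map _ (b0_cont_clipS K).measurable]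
  rfl

omit [DecidableEq V] in
theorem b0_empS_integral (c : Cfg V q) (u : Fin r → V → ℝ) (g : SState q r → ℝ) :
    ∫ x, g x ∂empS c u = avg fun h : HE V q => g (sview c h, fun a o => u a (sp c.1 h o)) :=
  b0_emp_integral _ _

omit [DecidableEq V] in
theorem b0_empS_integrable (c : Cfg V q) (u : Fin r → V → ℝ) (g : SState q r → ℝ) :
    Integrable g (empS c u) := b0_emp_integrable _ _

/-- the eigenvalue equation read on a star -/
theorem b0_Hm_mulVec (s : ℝ) (c : Cfg V q) (u : V → ℝ) (h : HE V q) :
    (Hm s c *ᵥ u) h.1 = s * (c.2 h.1 : ℝ) * u h.1 + ∑ j, u (sp c.1 h (some j)) := by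
  have e1 : (adj c.1 *ᵥ u) h.1 = ∑ i : Fin (q + 1), u (c.1 (h.1, i)).1 := by
    simp only [Matrix.mulVec, dotProduct, adj, Finset.card_filter]
    push_cast
    simp only [Finset.sum_mul]
    rw [Finset.sum_comm]
    refine Finset.sum_congr rfl fun i _ => ?_
    simp
  have e2 : ∑ j, u (sp c.1 h (some j)) = ∑ i : Fin (q + 1), u (c.1 (h.1, i)).1 :=
    Equiv.sum_comp (Equiv.addLeft h.2) fun i => u (c.1 (h.1, i)).1
  rw [Hm, Matrix.add_mulVec, Pi.add_apply, e1, e2, Matrix.mulVec_diagonal, add_comm]

end comb

end Crest.Agent.R166
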