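import Crest.Agent.R166.B0.Comb

/-!
# Row 166, block B0: tightness and the properties of the limit
-/

set_option autoImplicit false

open MeasureTheory ProbabilityTheory Filter Topology
open scoped ENNReal NNReal BigOperators BoundedContinuousFunction Matrix

noncomputable section

namespace Crest.Agent.R166

theorem b0_frame_avg {q r n : ℕ} {s E A : ℝ} {c : Cfg (Fin n) q} {u : Fin r → Fin n → ℝ}
    (hn : 0 < n) (h : IsFrame s E A c u) (a b : Fin r) :
    (avg fun v => u a v * u b v) = if a = b then 1 else 0 := by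
  have : (n : ℝ) ≠ 0 := by positivity
  unfold avg
  rw [h.2 a b]
  split_ifs <;> simp [this]

theorem b0_frame_sq {q r n : ℕ} {s E A : ℝ} {c : Cfg (Fin n) q} {u : Fin r → Fin n → ℝ}
    (hn : 0 < n) (h : IsFrame s E A c u) (a : Fin r) : (avg fun v => u a v ^ 2) = 1 := by
  simpa [sq] using b0_frame_avg hn h a a

section
variable {q r : ℕ} {s E A : ℝ} {n : ℕ → ℕ} {c : ∀ j, Cfg (Fin (n j)) q}
  {u : ∀ j, Fin r → Fin (n j) → ℝ} {μ : ℕ → ProbabilityMeasure (SState q r)}

theorem b0_int_sq (hn : ∀ j, 0 < n j) (hF : ∀ j, IsFrame s E A (c j) (u j))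
    (hμ : ∀ j, (μ j : Measure (SState q r)) = empS (c j) (u j)) (j : ℕ) (a : Fin r) (o : SI q) :
    ∫ x, x.2 a o ^ 2 ∂(μ j : Measure (SState q r)) = 1 := by
  rw [hμ, b0_empS_integral]
  exact (b0_avg_sp (c j).1 (fun v => u j a v ^ 2) o).trans (b0_frame_sq (hn j) (hF j) a)

theorem b0_tight (hn : ∀ j, 0 < n j) (hF : ∀ j, IsFrame s E A (c j) (u j))
    (hμ : ∀ j, (μ j : Measure (SState q r)) = empS (c j) (u j)) :
    ∃ (P : ProbabilityMeasure (SState q r)) (φ : ℕ → ℕ), StrictMono φ ∧
      Tendsto (μ ∘ φ) atTop (𝓝 P) := by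
  have hi : ∀ j (g : SState q r → ℝ), Integrable g (μ j) := fun j g => by
    rw [hμ]; exact b0_empS_integrable _ _ _
  have ht : IsTightMeasureSet {((ν : ProbabilityMeasure (SState q r)) : Measure (SState q r)) |
      ν ∈ Set.range μ} := by
    rw [isTightMeasureSet_iff_exists_isCompact_measure_compl_le]
    intro ε hε
    obtain ⟨δ, -, hδ1, hδ2⟩ := ENNReal.lt_iff_exists_real_btwn.1 hε
    have hδ : 0 < δ := ENNReal.ofReal_pos.1 hδ1
    set C : ℝ := ∑ _ : Fin r, ∑ _ : SI q, (1 : ℝ) with hC
    have hC0 : 0 ≤ C := by positivity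
    set R : ℝ := C / δ + 1 with hR
    have hR1 : 1 ≤ R := by have : 0 ≤ C / δ := by positivity
                           linarith
    refine ⟨Set.univ ×ˢ (Set.pi Set.univ fun _ => Set.pi Set.univ fun _ => Set.Icc (-R) R),
      isCompact_univ.prod (isCompact_univ_pi fun _ => isCompact_univ_pi fun _ => isCompact_Icc),
      ?_⟩
    rintro _ ⟨_, ⟨j, rfl⟩, rfl⟩
    have h1 := mul_meas_ge_le_integral_of_nonneg (μ := (μ j : Measure (SState q r)))
      (f := fun x => ∑ a, ∑ o, x.2 a o ^ 2) (Eventually.of_forall fun x => by positivity)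
      (hi j _) (R ^ 2)
    rw [integral_finsetSum _ fun a _ => hi j _] at h1
    simp_rw [integral_finsetSum _ fun o _ => hi j _, b0_int_sq hn hF hμ] at h1
    rw [← hC] at h1
    refine le_trans (measure_mono (t := {x | R ^ 2 ≤ ∑ a, ∑ o, x.2 a o ^ 2}) ?_) ?_
    · intro x hx
      simp only [Set.mem_compl_iff, Set.mem_prod, Set.mem_univ, true_and, Set.mem_pi,
        forall_true_left, not_forall] at hx
      obtain ⟨a, o, ho⟩ := hx
      have h2 : R ^ 2 ≤ x.2 a o ^ 2 := by
        rw [Set.mem_Icc, ← abs_le, not_le] at ho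
        rw [← sq_abs (x.2 a o)]
        gcongr
      refine h2.trans (le_trans ?_ (Finset.single_le_sum (f := fun a => ∑ o, x.2 a o ^ 2)
        (fun _ _ => by positivity) (Finset.mem_univ a)))
      exact Finset.single_le_sum (f := fun o => x.2 a o ^ 2) (fun _ _ => by positivity)
        (Finset.mem_univ o)
    · refine le_trans ?_ hδ2.le
      rw [← ofReal_measureReal]
      refine ENNReal.ofReal_le_ofReal ?_
      have h3 : C ≤ δ * R := by rw [hR]; field_simp; linarith
      have h4 := measureReal_nonneg (μ := (μ j : Measure (SState q r)))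
        (s := {x | R ^ 2 ≤ ∑ a, ∑ o, x.2 a o ^ 2})
      by_contra h5
      push Not at h5
      have h6 := mul_lt_mul_of_pos_left h5 (by positivity : 0 < R ^ 2)
      have h7 := mul_le_mul_of_nonneg_left hR1 (mul_pos hδ (by linarith : 0 < R)).le
      nlinarith
  obtain ⟨P, -, φ, hφ, hP⟩ := (isCompact_closure_of_isTightMeasureSet ht).tendsto_subseq
    (x := μ) fun j => subset_closure ⟨j, rfl⟩
  exact ⟨P, φ, hφ, hP⟩

theorem b0_isLimit {π : Measure II} [IsProbabilityMeasure π]
    {P : ProbabilityMeasure (SState q r)} (hn : ∀ j, 0 < n j) (hn' : Tendsto n atTop atTop)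
    (hF : ∀ j, IsFrame s E A (c j) (u j))
    (hμ : ∀ j, (μ j : Measure (SState q r)) = empS (c j) (u j)) (hP : Tendsto μ atTop (𝓝 P))
    (h4 : ∀ φ : C(SEnv q, ℝ), Tendsto (fun j => avg fun h : HE (Fin (n j)) q => φ (sview (c j) h))
      atTop (𝓝 (∫ e, φ e ∂starLaw q π)))
    (hZ : ∀ (φ : C(SEnv q, ℝ)) a,
      Tendsto (fun j => avg fun h : HE (Fin (n j)) q => φ (sview (c j) h) * u j a h.1) atTop (𝓝 0))
    (hU : ∀ ε : ℝ, 0 < ε → ∃ T : ℝ, ∀ᶠ j in atTop, ∀ a,
      (avg fun v => if T < u j a v ^ 2 then u j a v ^ 2 else 0) ≤ ε) :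
    IsLimit q r π s E P := by
  have hi : ∀ j (g : SState q r → ℝ), Integrable g (μ j) := fun j g => by
    rw [hμ]; exact b0_empS_integrable _ _ _
  refine ⟨inferInstance, ?_, fun k => ?_, ?_, fun a o => ?_, fun a b => ?_, ?_, fun φ a => ?_⟩
  · have := Measure.isProbabilityMeasure_map (μ := (P : Measure (SState q r)))
      (measurable_fst (α := SEnv q) (β := Fin r → SI q → ℝ)).aemeasurable
    refine ext_of_forall_integral_eq_of_IsFiniteMeasure fun f => ?_
    rw [integral_map measurable_fst.aemeasurable f.continuous.aestronglyMeasurable]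
    have h1 := ProbabilityMeasure.tendsto_iff_forall_integral_tendsto.1 hP
      (f.compContinuous ⟨Prod.fst, continuous_fst⟩)
    simp_rw [hμ, b0_empS_integral] at h1
    exact tendsto_nhds_unique h1 (h4 f.toContinuousMap)
  · have h1 := ProbabilityMeasure.tendsto_map_of_tendsto_of_continuous μ P hP (b0_cont_rotS k)
    have h2 : (fun j => (μ j).map (b0_cont_rotS k).measurable.aemeasurable) = μ := by
      ext1 j
      apply Subtype.ext
      change (μ j : Measure (SState q r)).map _ = (μ j : Measure (SState q r))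
      rw [hμ, b0_empS_rot]
    rw [h2] at h1
    exact congrArg (fun ν : ProbabilityMeasure (SState q r) => (ν : Measure (SState q r)))
      (tendsto_nhds_unique h1 hP)
  · have h0 := ProbabilityMeasure.tendsto_map_of_tendsto_of_continuous μ P hP (b0_cont_edgeOf 0)
    have h1 := ProbabilityMeasure.tendsto_map_of_tendsto_of_continuous _ _ h0 b0_cont_swapE
    have h2 : (fun j => ((μ j).map (b0_cont_edgeOf 0).measurable.aemeasurable).map
        b0_cont_swapE.measurable.aemeasurable) =
        fun j => (μ j).map (b0_cont_edgeOf 0).measurable.aemeasurable := by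
      ext1 j
      apply Subtype.ext
      change ((μ j : Measure (SState q r)).map _).map _ = (μ j : Measure (SState q r)).map _
      rw [hμ, b0_empS_edge, b0_empE_swap]
    rw [h2] at h1
    exact congrArg (fun ν : ProbabilityMeasure (EState q r) => (ν : Measure (EState q r)))
      (tendsto_nhds_unique h1 h0)
  · exact (b0_fatou hP (by fun_prop) (fun x => by positivity) (fun j => hi j _)
      (Eventually.of_forall fun j => (b0_int_sq hn hF hμ j a o).le)).1
  · have h1 := (b0_ui hP (f := fun x => x.2 a none * x.2 b none) (by fun_prop) (fun j => hi j _)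
      (fun ε hε => by
        obtain ⟨T, hT⟩ := hU ε hε
        refine ⟨max T 0, le_max_right _ _, ?_⟩
        filter_upwards [hT] with j hj
        rw [hμ, b0_empS_integral]
        refine le_trans (le_of_eq (b0_avg_fst
          (fun v => max (|u j a v * u j b v| - max T 0) 0))) ?_
        refine le_trans (b0_avg_mono (g := fun v =>
          1 / 2 * (if T < u j a v ^ 2 then u j a v ^ 2 else 0) +
          1 / 2 * (if T < u j b v ^ 2 then u j b v ^ 2 else 0)) fun v => ?_) ?_
        · have e1 : |u j a v * u j b v| ≤ (u j a v ^ 2 + u j b v ^ 2) / 2 := by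
            rw [abs_le]
            constructor <;> nlinarith [sq_nonneg (u j a v - u j b v), sq_nonneg (u j a v + u j b v)]
          have e2 := le_max_left T 0
          have e3 := le_max_right T 0
          have e4 := sq_nonneg (u j a v)
          have e5 := sq_nonneg (u j b v)
          refine max_le ?_ ?_ <;> split_ifs <;> linarith
        · rw [b0_avg_add, b0_avg_mul, b0_avg_mul]
          linarith [hj a, hj b])).2
    simp_rw [hμ, b0_empS_integral] at h1
    have h2 : ∀ j, (avg fun h : HE (Fin (n j)) q => u j a (sp (c j).1 h none) *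
        u j b (sp (c j).1 h none)) = if a = b then 1 else 0 := fun j =>
      (b0_avg_fst fun v => u j a v * u j b v).trans (b0_frame_avg (hn j) (hF j) a b)
    simp_rw [h2] at h1
    exact tendsto_nhds_unique h1 tendsto_const_nhds
  · rw [ae_all_iff]
    intro a
    let f : SState q r → ℝ := fun x =>
      ((s * (x.1.1 : ℝ) - E) * x.2 a none + ∑ j, x.2 a (some j)) ^ 2
    have hf : Continuous f := by fun_prop
    have h1 : ∀ j, ∫ x, f x ∂(μ j : Measure (SState q r)) ≤ (A / n j) ^ 2 := by
      intro j
      obtain ⟨lam, h1, h2⟩ := (hF j).1 a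
      rw [hμ, b0_empS_integral]
      have h3 : ∀ h : HE (Fin (n j)) q, f (sview (c j) h, fun a o => u j a (sp (c j).1 h o)) =
          (lam - E) ^ 2 * u j a h.1 ^ 2 := by
        intro h
        have h4 := b0_Hm_mulVec s (c j) (u j a) h
        rw [h1, Pi.smul_apply, smul_eq_mul] at h4
        simp only [f, sview]
        rw [← mul_pow]
        congr 1
        change (s * ((c j).2 h.1 : ℝ) - E) * u j a h.1 + _ = _
        linarith
      simp_rw [h3]
      rw [b0_avg_mul, b0_avg_fst fun v => u j a v ^ 2, b0_frame_sq (hn j) (hF j), mul_one,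
        ← sq_abs]
      gcongr
      simpa using h2
    have h2 : Tendsto (fun j => (A / n j) ^ 2) atTop (𝓝 0) := by
      simpa using ((tendsto_const_div_atTop_nhds_zero_nat A).comp hn').pow 2
    have h3 : ∀ ε : ℝ, 0 < ε → Integrable f P ∧ ∫ x, f x ∂(P : Measure (SState q r)) ≤ ε :=
      fun ε hε => b0_fatou hP hf (fun x => by positivity) (fun j => hi j _) (by
        filter_upwards [h2.eventually (ge_mem_nhds hε)] with j hj using (h1 j).trans hj)
    have h5 : ∫ x, f x ∂(P : Measure (SState q r)) = 0 :=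
      le_antisymm (le_of_forall_pos_le_add fun ε hε => by simpa using (h3 ε hε).2)
        (integral_nonneg fun x => by positivity)
    rw [integral_eq_zero_iff_of_nonneg (fun x => by positivity) (h3 1 one_pos).1] at h5
    filter_upwards [h5] with x hx
    exact pow_eq_zero_iff (two_ne_zero) |>.1 hx
  · have h1 := (b0_ui hP (f := fun x => φ x.1 * x.2 a none) (by fun_prop) (fun j => hi j _)
      (fun ε hε => by
        refine ⟨‖φ‖ ^ 2 / ε + 1, by positivity, Eventually.of_forall fun j => ?_⟩
        refine le_trans (integral_mono (hi j _) (hi j fun x => ε * x.2 a none ^ 2) fun x => ?_) ?_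
        · have e1 : |φ x.1 * x.2 a none| ≤ ‖φ‖ * |x.2 a none| := by
            rw [abs_mul]; gcongr; exact φ.norm_coe_le_norm _
          have e2 : ‖φ‖ * |x.2 a none| ≤ ‖φ‖ ^ 2 / ε + ε * x.2 a none ^ 2 := by
            rw [← sq_abs (x.2 a none), div_add' _ _ _ hε.ne', le_div_iff₀ hε]
            nlinarith [sq_nonneg (‖φ‖ - ε * |x.2 a none|),
              mul_nonneg (mul_nonneg (norm_nonneg φ) (abs_nonneg (x.2 a none))) hε.le]
          exact max_le (by linarith) (by positivity)
        · rw [integral_const_mul, b0_int_sq hn hF hμ, mul_one])).2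
    simp_rw [hμ, b0_empS_integral] at h1
    exact tendsto_nhds_unique h1 (hZ φ a)

end

end Crest.Agent.R166
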