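import Crest.Agent.R166.B0.Weak

/-!
# Row 166, block B0: selection of a bad sequence of typical configurations
-/

set_option autoImplicit false

open MeasureTheory ProbabilityTheory Filter Topology
open scoped ENNReal NNReal BigOperators

noncomputable section

namespace Crest.Agent.R166

variable {q : ℕ} {π : Measure II}

theorem b0_whp_and {p p' : ∀ n : ℕ, Cfg (Fin n) q → Prop} (h : Whp q π p) (h' : Whp q π p') :
    Whp q π fun n c => p n c ∧ p' n c := by
  have := h.add h'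
  rw [add_zero] at this
  refine tendsto_of_tendsto_of_tendsto_of_le_of_le tendsto_const_nhds this (fun _ => zero_le)
    fun n => le_trans (measure_mono fun c hc => ?_) (measure_union_le _ _)
  simp only [Set.mem_ofPred_eq, Set.mem_union] at hc ⊢
  tauto

theorem b0_whp_mono {p p' : ∀ n : ℕ, Cfg (Fin n) q → Prop} (h : Whp q π p)
    (h' : ∀ n c, p n c → p' n c) : Whp q π p' :=
  tendsto_of_tendsto_of_tendsto_of_le_of_le tendsto_const_nhds h (fun _ => zero_le)
    fun n => measure_mono fun c hc => ⟨hc.1, fun h1 => hc.2 (h' n c h1)⟩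

theorem b0_whp_le {p : ℕ → ∀ n : ℕ, Cfg (Fin n) q → Prop} (h : ∀ i, Whp q π (p i)) (j : ℕ) :
    Whp q π fun n c => ∀ i ≤ j, p i n c := by
  induction j with
  | zero => exact b0_whp_mono (h 0) fun n c h0 i hi => by rwa [Nat.le_zero.1 hi]
  | succ j ih =>
    refine b0_whp_mono (b0_whp_and ih (h (j + 1))) fun n c h0 i hi => ?_
    rcases Nat.le_succ_iff.1 hi with hi | rfl
    exacts [h0.1 i hi, h0.2]

theorem b0_select {B : ∀ n : ℕ, Cfg (Fin n) q → Prop} (hB : ¬ Whp q π B)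
    {W : ℕ → ∀ n : ℕ, Cfg (Fin n) q → Prop} (hW : ∀ i, Whp q π (W i))
    {L : ℝ → ℝ → ∀ n : ℕ, Cfg (Fin n) q → Prop}
    (hL : ∀ ε : ℝ, 0 < ε → ∃ T : ℝ, ∀ᶠ n : ℕ in atTop,
      cfgLaw (Fin n) q π {c | IsSimple c.1 ∧ L T ε n c} ≤ ENNReal.ofReal ε) :
    ∃ (e T : ℕ → ℝ) (n : ℕ → ℕ) (c : ∀ j, Cfg (Fin (n j)) q), Tendsto e atTop (𝓝 0) ∧
      ∀ j, j < n j ∧ IsSimple (c j).1 ∧ ¬ B (n j) (c j) ∧ W j (n j) (c j) ∧
        ∀ i ≤ j, ¬ L (T i) (e i) (n j) (c j) := by
  unfold Whp at hB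
  rw [ENNReal.tendsto_nhds_zero] at hB
  push Not at hB
  obtain ⟨ε₀, hε₀, hB⟩ := hB
  obtain ⟨δ, -, hδ1, hδ2⟩ := ENNReal.lt_iff_exists_real_btwn.1 hε₀
  have hδ : 0 < δ := ENNReal.ofReal_pos.1 hδ1
  set e : ℕ → ℝ := fun i => δ / 4 * (1 / 2) ^ i with he
  have he0 : ∀ i, 0 < e i := fun i => by positivity
  choose T hT using fun i => hL (e i) (he0 i)
  have key : ∀ j, ∃ (n : ℕ) (c : Cfg (Fin n) q), j < n ∧ IsSimple c.1 ∧ ¬ B n c ∧ W j n c ∧
      ∀ i ≤ j, ¬ L (T i) (e i) n c := by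
    intro j
    have h1 := ENNReal.tendsto_nhds_zero.1 (hW j) (ENNReal.ofReal (δ / 4)) (by simpa using hδ)
    have h2 : ∀ᶠ n : ℕ in atTop, ∀ i ∈ Finset.range (j + 1),
        cfgLaw (Fin n) q π {c | IsSimple c.1 ∧ L (T i) (e i) n c} ≤ ENNReal.ofReal (e i) :=
      (eventually_all_finset _).2 fun i _ => hT i
    obtain ⟨n, hn1, hn2, hn3, hn4⟩ :=
      (hB.and_eventually (h1.and (h2.and (eventually_gt_atTop j)))).exists
    by_contra hc
    push Not at hc
    have h3 : {c : Cfg (Fin n) q | IsSimple c.1 ∧ ¬ B n c} ⊆ {c | IsSimple c.1 ∧ ¬ W j n c} ∪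
        ⋃ i ∈ Finset.range (j + 1), {c | IsSimple c.1 ∧ L (T i) (e i) n c} := by
      intro c hc'
      by_cases hw : W j n c
      · obtain ⟨i, hi, hl⟩ := hc n c hn4 hc'.1 hc'.2 hw
        refine Or.inr (Set.mem_biUnion (Finset.mem_coe.2 (Finset.mem_range.2 (by omega : i < j + 1)))
          ⟨hc'.1, hl⟩)
      · exact Or.inl ⟨hc'.1, hw⟩
    have h4 : ∑ i ∈ Finset.range (j + 1), e i ≤ δ / 2 := by
      simp only [he, ← Finset.mul_sum]
      have := sum_geometric_two_le (j + 1)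
      nlinarith
    have h5 := (measure_mono (μ := cfgLaw (Fin n) q π) h3).trans ((measure_union_le _ _).trans
      (add_le_add hn2 ((measure_biUnion_finset_le _ _).trans (Finset.sum_le_sum hn3))))
    rw [← ENNReal.ofReal_sum_of_nonneg (fun i _ => (he0 i).le),
      ← ENNReal.ofReal_add (by positivity) (Finset.sum_nonneg fun i _ => (he0 i).le)] at h5
    have h6 := hn1.trans_le (h5.trans (ENNReal.ofReal_le_ofReal (by linarith : _ ≤ δ)))
    exact absurd (h6.trans hδ2) (lt_irrefl _)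
  choose n c hc using key
  refine ⟨e, T, n, c, ?_, hc⟩
  have := (tendsto_pow_atTop_nhds_zero_of_lt_one (by norm_num : (0 : ℝ) ≤ 1 / 2)
    (by norm_num)).const_mul (δ / 4)
  rwa [mul_zero] at this

/-- from a dense sequence of test functions to all of them -/
theorem b0_dense {X : Type} [PseudoMetricSpace X] {d : ℕ → X} (hd : DenseRange d)
    {F : ℕ → X → ℝ} {G : X → ℝ} (hF : ∀ j x y, |F j x - F j y| ≤ dist x y)
    (hG : ∀ x y, |G x - G y| ≤ dist x y)
    (h : ∀ j, ∀ i ≤ j, |F j (d i) - G (d i)| ≤ 1 / ((j : ℝ) + 1)) (x : X) :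
    Tendsto (fun j => F j x) atTop (𝓝 (G x)) := by
  rw [Metric.tendsto_nhds]
  intro ε hε
  obtain ⟨i, hi⟩ := hd.exists_dist_lt x (by positivity : 0 < ε / 3)
  filter_upwards [eventually_ge_atTop i, tendsto_one_div_add_atTop_nhds_zero_nat.eventually
    (gt_mem_nhds (by positivity : 0 < ε / 3))] with j h1 h2
  have h3 := abs_le.1 (h j i h1)
  have h4 := abs_le.1 (hF j x (d i))
  have h5 := abs_le.1 (hG x (d i))
  rw [Real.dist_eq, abs_lt]
  constructor <;> linarith [h3.1, h3.2, h4.1, h4.2, h5.1, h5.2]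

end Crest.Agent.R166
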