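import Crest.Agent.R166.B0.Lim
import Crest.Agent.R166.B0.Sel

/-!
# Row 166, block B0: `stB0`
-/

set_option autoImplicit false

open MeasureTheory ProbabilityTheory Filter Topology
open scoped ENNReal NNReal BigOperators BoundedContinuousFunction Matrix

noncomputable section

namespace Crest.Agent.R166

theorem b0_whp_P4 (hP4 : StP4) (q : ℕ) (π : Measure II) [IsProbabilityMeasure π]
    (φ : C(SEnv q, ℝ)) {ε : ℝ} (hε : 0 < ε) : Whp q π fun n c =>
      |(avg fun h : HE (Fin n) q => φ (sview c h)) - ∫ e, φ e ∂starLaw q π| ≤ ε :=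
  tendsto_of_tendsto_of_tendsto_of_le_of_le tendsto_const_nhds (hP4 q π φ ε hε) (fun _ => zero_le)
    fun _ => measure_mono fun _ hc => not_le.1 hc.2

theorem stB0 (hP4 : StP4) (hB2 : StB2) (hB3 : StB3) : StB0 := by
  intro q π _ s κ E hq hs0 hs1 hE hT hLL hZ hB1 r A Q hQ U hU
  by_contra hB
  choose G hG hG' using fun (k K : ℕ) => hB1 k r K
  have hd : DenseRange (TopologicalSpace.denseSeq C(SEnv q, ℝ)) :=
    TopologicalSpace.denseRange_denseSeq _
  set d := TopologicalSpace.denseSeq C(SEnv q, ℝ)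
  have hpos : ∀ j : ℕ, (0 : ℝ) < 1 / ((j : ℝ) + 1) := fun j => by positivity
  have hW := fun j : ℕ => b0_whp_and
    (b0_whp_le (fun k => b0_whp_le (fun K => b0_whp_le (hG k K) j) j) j)
    (b0_whp_and (b0_whp_le (fun i => b0_whp_P4 hP4 q π (d i) (hpos j)) j)
      (b0_whp_le (fun i => hZ (d i) A _ (hpos j)) j))
  obtain ⟨e, T, n, c, he, hc⟩ := b0_select hB hW
    (L := fun T ε n c => ∃ (u : Fin n → ℝ) (lam : ℝ), Hm s c *ᵥ u = lam • u ∧
      ∑ v, u v ^ 2 = n ∧ |lam - E| ≤ A / n ∧ ε < avg fun v => if T < u v ^ 2 then u v ^ 2 else 0)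
    (fun ε hε => by
      obtain ⟨T, hT⟩ := hLL A ε hε
      exact ⟨T, hT E hE⟩)
  have hbad := fun j => (hc j).2.2.1
  push Not at hbad
  choose u hF ν hν hνU using hbad
  have hn : ∀ j, 0 < n j := fun j => (Nat.zero_le j).trans_lt (hc j).1
  have hn' : Tendsto n atTop atTop := tendsto_atTop_mono (fun j => (hc j).1.le) tendsto_id
  have hne : ∀ j, Nonempty (HE (Fin (n j)) q) := fun j => ⟨(⟨0, hn j⟩, 0)⟩
  let μ : ℕ → ProbabilityMeasure (SState q r) := fun j =>
    ⟨empS (c j) (u j), haveI := hne j; b0_emp_prob _⟩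
  have hμ : ∀ j, (μ j : Measure (SState q r)) = empS (c j) (u j) := fun j => rfl
  obtain ⟨P, φ, hφ, hP⟩ := b0_tight hn hF hμ
  have hφ' := hφ.tendsto_atTop
  have hsq : ∀ j a, ∑ v, u j a v ^ 2 = n j := fun j a => by simpa [sq] using (hF j).2 a a
  have hlam : ∀ j a, ∃ lam : ℝ, Hm s (c j) *ᵥ u j a = lam • u j a ∧ |lam - E| ≤ A / n j :=
    fun j a => by simpa using (hF j).1 a
  have hdist : ∀ (x y : C(SEnv q, ℝ)) z, |x z - y z| ≤ dist x y := fun x y z =>
    (Real.dist_eq _ _).symm.trans_le (ContinuousMap.dist_apply_le_dist z)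
  have h4 := b0_dense hd (F := fun j x => avg fun h : HE (Fin (n j)) q => x (sview (c j) h))
    (G := fun x => ∫ e, x e ∂starLaw q π)
    (fun j x y => by
      have := hne j
      rw [← b0_avg_sub]
      exact (b0_abs_avg _).trans ((b0_avg_mono fun h => hdist x y _).trans (b0_avg_const _).le))
    (fun x y => by
      have hi : ∀ x : C(SEnv q, ℝ), Integrable x (starLaw q π) := fun x =>
        (BoundedContinuousFunction.mkOfCompact x).integrable _
      rw [← integral_sub (hi x) (hi y)]
      simpa using norm_integral_le_of_norm_le_const (μ := starLaw q π)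
        (f := fun e => x e - y e) (Eventually.of_forall (hdist x y)))
    (fun j => (hc j).2.2.2.1.2.1)
  have h5 := fun a => b0_dense hd
    (F := fun j x => avg fun h : HE (Fin (n j)) q => x (sview (c j) h) * u j a h.1)
    (G := fun _ => 0)
    (fun j x y => by
      have := hne j
      rw [← b0_avg_sub]
      refine (b0_abs_avg _).trans ((b0_avg_mono (g := fun h =>
        dist x y / 2 + dist x y / 2 * u j a h.1 ^ 2) fun h => ?_).trans (le_of_eq ?_))
      · rw [← sub_mul, abs_mul, ← sq_abs (u j a h.1)]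
        have h1 := mul_le_mul_of_nonneg_right (hdist x y (sview (c j) h)) (abs_nonneg (u j a h.1))
        nlinarith [mul_nonneg (dist_nonneg (x := x) (y := y)) (sq_nonneg (|u j a h.1| - 1))]
      · rw [b0_avg_add, b0_avg_const, b0_avg_mul, b0_avg_fst fun v => u j a v ^ 2,
          b0_frame_sq (hn j) (hF j)]
        ring)
    (fun x y => by simp)
    (fun j i hi => by
      obtain ⟨lam, h1, h2⟩ := hlam j a
      simpa using (hc j).2.2.2.1.2.2 i hi (u j a) lam h1 (hsq j a) h2)
  have hL : IsLimit q r π s E P := b0_isLimit (n := fun j => n (φ j)) (c := fun j => c (φ j))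
    (u := fun j => u (φ j)) (μ := μ ∘ φ) (fun j => hn _) (hn'.comp hφ') (fun j => hF _)
    (fun j => rfl) hP (fun x => (h4 x).comp hφ') (fun x a => (h5 a x).comp hφ') (fun ε hε => by
      obtain ⟨i, hi⟩ := (he.eventually (ge_mem_nhds hε)).exists
      refine ⟨T i, ?_⟩
      filter_upwards [hφ'.eventually (eventually_ge_atTop i)] with j hj a
      obtain ⟨lam, h1, h2⟩ := hlam (φ j) a
      have := (hc (φ j)).2.2.2.2 i hj
      push Not at this
      exact (this _ lam h1 (hsq _ a) h2).trans hi)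
  have hEnt : ∀ k K : ℕ, EntIneq q r π s (zk E k) ((P : Measure (SState q r)).map (clipS K)) := by
    intro k K
    have hψ : Tendsto (fun l => l + (k + K)) atTop atTop := tendsto_add_atTop_nat _
    refine hG' k K (fun l => n (φ (l + (k + K)))) (fun l => c (φ (l + (k + K))))
      (fun l a v => max (-(K : ℝ)) (min K (u (φ (l + (k + K))) a v)))
      (fun l => (μ (φ (l + (k + K)))).map (b0_cont_clipS K).measurable.aemeasurable)
      (P.map (b0_cont_clipS K).measurable.aemeasurable) (hn'.comp (hφ'.comp hψ))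
      (fun l => ⟨(hc _).2.1, ?_⟩) (fun l a v => ?_) (fun l => b0_empS_clip _ _ _)
      (ProbabilityMeasure.tendsto_map_of_tendsto_of_continuous _ _ (hP.comp hψ) (b0_cont_clipS K))
    · have := hφ.le_apply (x := l + (k + K))
      exact (hc _).2.2.2.1.1 k (by omega) K (by omega) l (by omega)
    · have : (0 : ℝ) ≤ K := Nat.cast_nonneg K
      exact abs_le.2 ⟨le_max_left _ _, max_le (by linarith) (min_le_left _ _)⟩
  have h6 := hB3 q r π s E P hq hT hL (hB2 q r π s E P hs0 hs1 hT hL hEnt)
  have h7 := ProbabilityMeasure.tendsto_map_of_tendsto_of_continuous _ _ hP (b0_cont_edgeOf 0)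
  have h8 : P.map (b0_cont_edgeOf 0).measurable.aemeasurable = Q :=
    Subtype.ext (h6.trans hQ.symm)
  rw [h8] at h7
  obtain ⟨j, hj⟩ := (h7.eventually hU).exists
  refine hνU (φ j) ?_
  have h9 : ν (φ j) = (μ (φ j)).map (b0_cont_edgeOf 0).measurable.aemeasurable :=
    Subtype.ext ((hν _).trans (b0_empS_edge _ _).symm)
  rwa [h9]

end Crest.Agent.R166
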