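import Crest.Agent.R166.Iface

/-!
# Row 166, block B0: weak limits (Fatou, uniform integrability) and empirical measures
-/

set_option autoImplicit false

open MeasureTheory ProbabilityTheory Filter Topology
open scoped ENNReal NNReal BigOperators BoundedContinuousFunction

noncomputable section

namespace Crest.Agent.R166

section weak
variable {X : Type} [TopologicalSpace X] [MeasurableSpace X] [BorelSpace X] [HasOuterApproxClosed X]
  {μ : ℕ → ProbabilityMeasure X} {P : ProbabilityMeasure X}

theorem b0_fatou (h : Tendsto μ atTop (𝓝 P)) {f : X → ℝ} (hf : Continuous f) (h0 : ∀ x, 0 ≤ f x)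
    (hi : ∀ j, Integrable f (μ j)) {C : ℝ}
    (hC : ∀ᶠ j in atTop, ∫ x, f x ∂(μ j : Measure X) ≤ C) :
    Integrable f P ∧ ∫ x, f x ∂(P : Measure X) ≤ C := by
  have h1 := lintegral_le_liminf_lintegral_of_forall_isOpen_measure_le_liminf_measure
    (μ := (P : Measure X)) (μs := fun j => (μ j : Measure X)) hf h0
    (fun G hG => ProbabilityMeasure.le_liminf_measure_open_of_tendsto h hG)
  have h2 : ∀ᶠ j in atTop, ∫⁻ x, ENNReal.ofReal (f x) ∂(μ j : Measure X) ≤ ENNReal.ofReal C := by
    filter_upwards [hC] with j hj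
    rw [← ofReal_integral_eq_lintegral_ofReal (hi j) (Eventually.of_forall h0)]
    exact ENNReal.ofReal_le_ofReal hj
  have h3 : ∫⁻ x, ENNReal.ofReal (f x) ∂(P : Measure X) ≤ ENNReal.ofReal C :=
    h1.trans (liminf_le_of_frequently_le' h2.frequently)
  have hC0 : 0 ≤ C := by
    obtain ⟨j, hj⟩ := hC.exists
    exact (integral_nonneg h0).trans hj
  have hP : Integrable f P := by
    refine ⟨hf.aestronglyMeasurable, ?_⟩
    rw [hasFiniteIntegral_iff_ofReal (Eventually.of_forall h0)]
    exact h3.trans_lt ENNReal.ofReal_lt_top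
  refine ⟨hP, ?_⟩
  rw [← ofReal_integral_eq_lintegral_ofReal hP (Eventually.of_forall h0)] at h3
  exact (ENNReal.ofReal_le_ofReal_iff hC0).1 h3

theorem b0_clip_err {K x : ℝ} (hK : 0 ≤ K) : |x - max (-K) (min K x)| = max (|x| - K) 0 := by
  rcases le_total K x with h | h
  · rw [min_eq_left h, max_eq_right (by linarith), abs_of_nonneg (by linarith),
      abs_of_nonneg (by linarith), max_eq_left (by linarith)]
  · rw [min_eq_right h]
    rcases le_total (-K) x with h' | h'
    · rw [max_eq_right h', sub_self, abs_zero, max_eq_right]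
      rw [sub_nonpos, abs_le]; exact ⟨h', h⟩
    · rw [max_eq_left h', abs_of_nonpos (by linarith), abs_of_nonpos (by linarith),
        max_eq_left (by linarith)]
      ring

theorem b0_ui (h : Tendsto μ atTop (𝓝 P)) {f : X → ℝ} (hf : Continuous f)
    (hi : ∀ j, Integrable f (μ j))
    (hU : ∀ ε : ℝ, 0 < ε → ∃ K : ℝ, 0 ≤ K ∧
      ∀ᶠ j in atTop, ∫ x, max (|f x| - K) 0 ∂(μ j : Measure X) ≤ ε) :
    Integrable f P ∧
      Tendsto (fun j => ∫ x, f x ∂(μ j : Measure X)) atTop (𝓝 (∫ x, f x ∂(P : Measure X))) := by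
  have hti : ∀ (K : ℝ) j, Integrable (fun x => max (|f x| - K) 0) (μ j) := fun K j =>
    ((hi j).abs.sub (integrable_const K)).pos_part
  have hF : ∀ (K ε : ℝ), (∀ᶠ j in atTop, ∫ x, max (|f x| - K) 0 ∂(μ j : Measure X) ≤ ε) →
      Integrable (fun x => max (|f x| - K) 0) P ∧ ∫ x, max (|f x| - K) 0 ∂(P : Measure X) ≤ ε :=
    fun K ε hj => b0_fatou h (by fun_prop) (fun x => le_max_right _ _) (hti K) hj
  have hP : Integrable f P := by
    obtain ⟨K, -, hK⟩ := hU 1 one_pos
    refine ((hF K 1 hK).1.add (integrable_const K)).mono' hf.aestronglyMeasurable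
      (Eventually.of_forall fun x => ?_)
    have := le_max_left (|f x| - K) 0
    simp only [Real.norm_eq_abs, Pi.add_apply]
    linarith
  refine ⟨hP, ?_⟩
  rw [Metric.tendsto_nhds]
  intro ε hε
  obtain ⟨K, hK0, hK⟩ := hU (ε / 3) (by positivity)
  let g : X →ᵇ ℝ := BoundedContinuousFunction.ofNormedAddCommGroup
    (fun x => max (-K) (min K (f x))) (by fun_prop) K (fun x => by
      rw [Real.norm_eq_abs, abs_le]
      exact ⟨le_max_left _ _, max_le (by linarith) (min_le_left _ _)⟩)
  have hg := ProbabilityMeasure.tendsto_iff_forall_integral_tendsto.1 h g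
  have key : ∀ ν : ProbabilityMeasure X, Integrable f ν →
      |∫ x, f x ∂(ν : Measure X) - ∫ x, g x ∂(ν : Measure X)| ≤
        ∫ x, max (|f x| - K) 0 ∂(ν : Measure X) := by
    intro ν hν
    rw [← integral_sub hν (g.integrable _)]
    refine abs_integral_le_integral_abs.trans (le_of_eq ?_)
    congr 1
    ext x
    exact b0_clip_err hK0
  filter_upwards [hK, Metric.tendsto_nhds.1 hg (ε / 3) (by positivity)] with j h1 h2
  have h3 := abs_le.1 ((key _ (hi j)).trans h1)
  have h4 := abs_le.1 ((key _ hP).trans (hF K _ hK).2)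
  rw [Real.dist_eq, abs_lt] at h2 ⊢
  constructor <;> linarith [h2.1, h2.2, h3.1, h3.2, h4.1, h4.2]

end weak

section emp
variable {ι X Y : Type} [Fintype ι] [MeasurableSpace X] [MeasurableSpace Y]

theorem b0_emp_prob [Nonempty ι] (f : ι → X) : IsProbabilityMeasure (emp f) := by
  constructor
  have : (Fintype.card ι : ℝ≥0∞) ≠ 0 := by simp
  simp [emp, ENNReal.inv_mul_cancel this]

theorem b0_emp_integrable [MeasurableSingletonClass X] (f : ι → X) (g : X → ℝ) :
    Integrable g (emp f) := by
  unfold emp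
  rcases isEmpty_or_nonempty ι with hι | hι
  · simp
  refine Integrable.smul_measure ?_ (by simp)
  exact integrable_finsetSum_measure.2 fun i _ => integrable_dirac (by simp)

theorem b0_emp_integral [MeasurableSingletonClass X] (f : ι → X) (g : X → ℝ) :
    ∫ x, g x ∂emp f = avg fun i => g (f i) := by
  unfold emp avg
  rw [integral_smul_measure, integral_finsetSum_measure fun i _ => integrable_dirac (by simp)]
  simp [div_eq_inv_mul]

theorem b0_emp_map (f : ι → X) {g : X → Y} (hg : Measurable g) :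
    (emp f).map g = emp fun i => g (f i) := by
  unfold emp
  rw [Measure.map_smul, Measure.map_finset_sum' hg.aemeasurable]
  simp [Measure.map_dirac' hg]

theorem b0_emp_equiv (f : ι → X) (e : ι ≃ ι) : (emp fun i => f (e i)) = emp f := by
  unfold emp
  rw [Equiv.sum_comp e fun i => Measure.dirac (f i)]

theorem b0_avg_equiv (f : ι → ℝ) (e : ι ≃ ι) : (avg fun i => f (e i)) = avg f := by
  unfold avg
  rw [Equiv.sum_comp e f]

theorem b0_avg_fst {κ : Type} [Fintype κ] [Nonempty κ] (f : ι → ℝ) :
    (avg fun p : ι × κ => f p.1) = avg f := by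
  unfold avg
  rw [Fintype.sum_prod_type, Fintype.card_prod]
  have : (Fintype.card κ : ℝ) ≠ 0 := by simp
  simp only [Finset.sum_const, Finset.card_univ, nsmul_eq_mul, ← Finset.mul_sum]
  push_cast
  rw [mul_comm (Fintype.card ι : ℝ), mul_div_mul_left _ _ this]

theorem b0_avg_mono {f g : ι → ℝ} (h : ∀ i, f i ≤ g i) : avg f ≤ avg g := by
  unfold avg
  gcongr
  exact h _

theorem b0_avg_add (f g : ι → ℝ) : (avg fun i => f i + g i) = avg f + avg g := by
  unfold avg
  rw [Finset.sum_add_distrib, add_div]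

theorem b0_avg_sub (f g : ι → ℝ) : (avg fun i => f i - g i) = avg f - avg g := by
  unfold avg
  rw [Finset.sum_sub_distrib, sub_div]

theorem b0_avg_mul (c : ℝ) (f : ι → ℝ) : (avg fun i => c * f i) = c * avg f := by
  unfold avg
  rw [← Finset.mul_sum, mul_div_assoc]

theorem b0_avg_const [Nonempty ι] (c : ℝ) : (avg fun _ : ι => c) = c := by
  have : (Fintype.card ι : ℝ) ≠ 0 := by simp
  simp [avg, mul_div_cancel_left₀ _ this]

theorem b0_abs_avg (f : ι → ℝ) : |avg f| ≤ avg fun i => |f i| := by
  unfold avg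
  rw [abs_div, Nat.abs_cast]
  gcongr
  exact Finset.abs_sum_le_sum_abs _ _

end emp

end Crest.Agent.R166
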